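import Vale.Agent.P032.H533.ArcBox
import Vale.Agent.P032.H403.DFin

/-!
# P032: no centre with a (2, 2)-network, from two facts on the centres next to it

`Is22 T z v v' q q'` : two ends of one palette and two ends of the complementary palette.
`Is11 T w v q` : complementary ends, each the only point of its palette on the circle.
`Nb T w v q` : `w` is `Is11`, and its partner `v + q - w` is the centre of an `Is22`.

`no_22` : if every partner of an `Is22` is `Is11` and the missing colours are those of a product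
(`hA`), and at every `Nb` the exact arcs at `v` and `q` have plain ends of the other network, which
is again an `Is22`, and some other point of the circle has four colours (`hB`), then there is no
`Is22`.  Only `Irr`, `Mn` and: no unit pair with at least five and at least four colours.
-/

open Set Filter Topology Metric

noncomputable section

namespace Vale.Agent.P032.H533

open Vale.Agent.P032.Six Vale.Agent.P032.S5.H767 Vale.Agent.P032.S5.H349
  Vale.Agent.P032.S5.H450 Vale.Agent.P032.H471 Vale.Agent.P032.H926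

variable {U : Fin 6 → Set ℂ} {T : ℂ → Set (Fin 6)} {z w v q v' q' : ℂ}

/-- two ends of one palette and two ends of the complementary palette -/
structure Is22 (T : ℂ → Set (Fin 6)) (z v v' q q' : ℂ) : Prop where
  ev : EE T z v
  ev' : EE T z v'
  eq : EE T z q
  eq' : EE T z q'
  hv : T v' = T v
  hq : T q' = T q
  c : T q = (T v)ᶜ
  nv : v ≠ v'
  nq : q ≠ q'

/-- complementary ends, each of them the only point of its palette -/
structure Is11 (T : ℂ → Set (Fin 6)) (w v q : ℂ) : Prop where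
  ev : EE T w v
  eq : EE T w q
  c : T q = (T v)ᶜ
  uv : ∀ x, dist x w = 1 → T x = T v → x = v
  uq : ∀ x, dist x w = 1 → T x = T q → x = q

/-- an `Is11` next to an `Is22` -/
def Nb (T : ℂ → Set (Fin 6)) (w v q : ℂ) : Prop :=
  Is11 T w v q ∧ ∃ v' q', Is22 T (v + q - w) v v' q q'

namespace Is22

theorem s1 (I : Is22 T z v v' q q') : Is22 T z v' v q q' :=
  ⟨I.ev', I.ev, I.eq, I.eq', I.hv.symm, I.hq, by rw [I.c, I.hv], I.nv.symm, I.nq⟩

theorem s2 (I : Is22 T z v v' q q') : Is22 T z v v' q' q :=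
  ⟨I.ev, I.ev', I.eq', I.eq, I.hv, I.hq.symm, by rw [I.hq, I.c], I.nv, I.nq.symm⟩

theorem sw (I : Is22 T z v v' q q') : Is22 T z q q' v v' :=
  ⟨I.eq, I.eq', I.ev, I.ev', I.hq, I.hv, by rw [I.c, compl_compl], I.nq, I.nv⟩

theorem nb (I : Is22 T z v v' q q') (hA : Is11 T (v + q - z) v q) : Nb T (v + q - z) v q := by
  refine ⟨hA, v', q', ?_⟩
  have : v + q - (v + q - z) = z := by ring
  rw [this]; exact I

end Is22

/-- the data of the box of a neighbour -/
theorem exists_box (h : Irr U T) (hmin : Mn U T)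
    (hA : ∀ z v v' q q', Is22 T z v v' q q' → Is11 T (v + q - z) v q)
    (hB : ∀ w v q, Nb T w v q →
      ∃ v1 v2 q1 q2, AA T w v v1 ∧ AA T w q q1 ∧ Is22 T w v1 v2 q1 q2) (hN : Nb T w v q) :
    ∃ B : Box, B.w = w ∧ B.Ok2 T ∧ v ∈ B.K ∧ q ∈ B.L ∧
      ∀ p ∈ B.K, ∀ r ∈ B.L, T p ∪ T r = univ →
        (p = v ∧ r = q) ∨ ∃ v2 q2, Is22 T w p v2 r q2 := by
  obtain ⟨v1, v2, q1, q2, av, aq, I⟩ := hB w v q hN
  obtain ⟨O, v', q', J⟩ := hN
  have hc : T q = (T v)ᶜ := O.c
  -- the palette of `w`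
  have hPv1 : T w ∩ T v1 = T w ∩ T v := av.pair'
  have hPq1 : T w ∩ T q1 = T w ∩ T q := aq.pair'
  have hwq : T w ∩ T q = T w \ T v := by rw [hc]; rfl
  obtain ⟨a, b, hab, hTab⟩ := Set.ncard_eq_two.1 O.ev.card_i
  obtain ⟨c, d, hcd, hTcd⟩ := Set.ncard_eq_two.1 O.ev.card_s
  have D : DPt T w a b c d := O.ev.dpt h hTab hTcd
  -- clean ends
  have w4 : (T (v + q - w)).ncard ≤ 4 := J.ev.card_z.le
  have I1 := hA _ _ _ _ _ I
  have w4' : (T (v1 + q1 - w)).ncard ≤ 4 := I1.ev.card_z.le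
  have c1 := cln533 h O.ev O.eq hc w4
  have c2 := cln533 h O.eq O.ev (by rw [hc, compl_compl]) (by rw [add_comm q v]; exact w4)
  have c3 := cln533 h I.ev I.eq I.c w4'
  have c4 := cln533 h I.eq I.ev (by rw [I.c, compl_compl]) (by rw [add_comm q1 v1]; exact w4')
  obtain ⟨K, k1, k2, k3, k4, k5, k6⟩ := arc_set533 h av hTab c1 c3
  obtain ⟨L, l1, l2, l3, l4, l5, l6⟩ := arc_set533 h aq (hwq.trans hTcd) c2 c4
  have nv1 : v1 ≠ v := av.ne
  have nq1 : q1 ≠ q := aq.ne
  have n2 : ∀ {i j : Fin 6}, i ≠ j → (({i, j} : Set (Fin 6)).ncard ≤ 2) := fun hij => by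
    rw [Set.ncard_pair hij]
  -- complementary corners
  have hcorn : ∀ p ∈ K, ∀ r ∈ L, T p ∪ T r = univ →
      (p = v ∧ r = q) ∨ (p = v1 ∧ r = q1) := by
    intro p hp r hr hu
    have hcard : 6 ≤ (T p).ncard + (T r).ncard := by
      have h1 := Set.ncard_union_le (T p) (T r)
      rw [hu, Set.ncard_univ, Nat.card_eq_fintype_card, Fintype.card_fin] at h1
      exact h1
    have hp3 : (T p).ncard ≤ 3 := by
      rcases k6 p hp with rfl | rfl | h5
      · exact O.ev.card_v.le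
      · exact I.ev.card_v.le
      · rw [h5, Set.ncard_pair hab]; omega
    have hr3 : (T r).ncard ≤ 3 := by
      rcases l6 r hr with rfl | rfl | h5
      · exact O.eq.card_v.le
      · exact I.eq.card_v.le
      · rw [h5, Set.ncard_pair hcd]; omega
    have hpr : T r = (T p)ᶜ := by
      refine (Set.eq_of_subset_of_ncard_le (s := (T p)ᶜ) (fun i hi => ?_) ?_
        (Set.toFinite _)).symm
      · have h5 : i ∈ T p ∪ T r := by rw [hu]; exact mem_univ i
        rcases h5 with h5 | h5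
        · exact absurd h5 hi
        · exact h5
      · have h5 := Set.ncard_add_ncard_compl (T p)
        rw [Nat.card_eq_fintype_card, Fintype.card_fin] at h5
        omega
    rcases k6 p hp with rfl | rfl | h5
    · left
      exact ⟨rfl, O.uq r (dist_of_closure (l4 hr)) (by rw [hpr, hc])⟩
    · right
      refine ⟨rfl, ?_⟩
      rcases l6 r hr with rfl | rfl | h5
      · exfalso
        have h6 : T p = T v := by
          rw [hc] at hpr
          exact (compl_injective hpr).symm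
        exact nv1 (O.uv p (dist_of_closure (k4 hp)) h6)
      · rfl
      · exfalso
        rw [h5, Set.ncard_pair hcd] at hcard
        omega
    · exfalso
      rw [h5, Set.ncard_pair hab] at hcard
      omega
  refine ⟨⟨w, a, b, c, d, K, L⟩, rfl,
    { D := D
      cK := k1
      cL := l1
      sK := k4
      sL := l4
      nK := k5
      nL := l5
      tK := ?_
      tL := ?_
      u4 := ?_ }, k2, l2, ?_⟩
  · intro p hp
    rcases k6 p hp with rfl | rfl | h5
    · exact O.ev.card_v.le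
    · exact I.ev.card_v.le
    · rw [h5, Set.ncard_pair hab]; omega
  · intro r hr
    rcases l6 r hr with rfl | rfl | h5
    · exact O.eq.card_v.le
    · exact I.eq.card_v.le
    · rw [h5, Set.ncard_pair hcd]; omega
  · rintro u ⟨hcol, p, hp, r, hr, rfl⟩
    have hcol : ∀ i, i ∉ T w → i ∈ T (p + r - w) := hcol
    have hp : p ∈ K := hp
    have hr : r ∈ L := hr
    show (T (p + r - w)).ncard ≤ 4
    by_cases hu : T p ∪ T r = univ
    · rcases hcorn p hp r hr hu with ⟨rfl, rfl⟩ | ⟨rfl, rfl⟩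
      · exact w4
      · exact w4'
    · have hp3 : (T p).ncard ≤ 3 := by
        rcases k6 p hp with rfl | rfl | h5
        · exact O.ev.card_v.le
        · exact I.ev.card_v.le
        · rw [h5, Set.ncard_pair hab]; omega
      have hr3 : (T r).ncard ≤ 3 := by
        rcases l6 r hr with rfl | rfl | h5
        · exact O.eq.card_v.le
        · exact I.eq.card_v.le
        · rw [h5, Set.ncard_pair hcd]; omega
      have hpr : p ≠ r := by
        rintro rfl
        have h1 : T w ⊆ T p := by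
          have h2 := sub_of_closure h (k4 hp)
          have h3 := sub_of_closure h (l4 hr)
          rw [D.pal]
          rintro i (rfl | rfl | rfl | rfl)
          exacts [h2 (by simp), h2 (by simp), h3 (by simp), h3 (by simp)]
        have h5 := Set.ncard_le_ncard h1 (Set.toFinite _)
        rw [DPt_card D] at h5
        omega
      have hpr2 : p + r ≠ 2 * w := by
        intro h1
        have h2 : p + r - w = w := by linear_combination h1
        have h3 : (T w)ᶜ = ∅ := by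
          rw [Set.eq_empty_iff_forall_notMem]
          intro i hi
          have := hcol i hi
          rw [h2] at this
          exact hi this
        have h4 := card_compl D
        rw [h3, Set.ncard_empty] at h4
        omega
      exact four_of_box h hmin D (k4 hp) (l4 hr) hp3 hr3 hpr hpr2 hcol hu
  · intro p hp r hr hu
    rcases hcorn p hp r hr hu with h5 | ⟨rfl, rfl⟩
    · exact Or.inl h5
    · exact Or.inr ⟨v2, q2, I⟩

/-- the two missing colours of the four partners -/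
theorem miss533 (h : Irr U T)
    (hA2 : ∀ z v v' q q', Is22 T z v v' q q' → T (v + q - z) ∩ T q = T (v + q' - z) ∩ T q ∧
      T (v + q - z) ∩ T v = T (v' + q - z) ∩ T v)
    (I : Is22 T z v v' q q') :
    ∀ x ∈ T z ∩ T v, ∀ y ∈ T z \ T v, ∃ r ∈ ({v, v'} : Set ℂ), ∃ s ∈ ({q, q'} : Set ℂ),
      x ∉ T (r + s - z) ∧ y ∉ T (r + s - z) := by
  have N1 := nd_of_ee h I.ev I.eq I.c
  have N1' := nd_of_ee h I.ev I.eq' (by rw [I.hq, I.c])
  have N2 := nd_of_ee h I.eq I.ev (by rw [I.c, compl_compl])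
  have N2' := nd_of_ee h I.eq I.ev' (by rw [I.c, compl_compl, I.hv])
  have h4 : (T z).ncard = 4 := I.ev.card_z
  obtain ⟨⟨r, hr, hrz⟩, s, hs, hsz⟩ := light_of_four h N1 h4
  obtain ⟨⟨r', hr', hrz'⟩, s', hs', hsz'⟩ := light_of_four h N2 h4
  obtain ⟨x1, x2, -, e2, e3, hX, m1, m2⟩ := Nd.two_light h N1 N1' I.nq hr hrz hs hsz
  obtain ⟨y1, y2, -, f2, f3, hY, n1, n2⟩ := Nd.two_light h N2 N2' I.nv hr' hrz' hs' hsz'
  rw [add_comm q v] at n1
  rw [add_comm q v'] at n2
  obtain ⟨a1, b1⟩ := hA2 _ _ _ _ _ I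
  obtain ⟨a2, b2⟩ := hA2 _ _ _ _ _ I.s1
  obtain ⟨a3, b3⟩ := hA2 _ _ _ _ _ I.s2
  have tr : ∀ {A B C : Set (Fin 6)} {i : Fin 6}, A ∩ C = B ∩ C → i ∈ C → i ∉ A → i ∉ B := by
    intro A B C i e hi hA hB
    have : i ∈ A ∩ C := by rw [e]; exact ⟨hB, hi⟩
    exact hA this.1
  have hx1 : x1 ∈ T v := by rw [hX]; simp
  have hx2 : x2 ∈ T v := by rw [hX]; simp
  have hy1 : y1 ∈ T q := by rw [hY]; simp
  have hy2 : y2 ∈ T q := by rw [hY]; simp
  have hy1' : y1 ∈ T q' := by rw [I.hq]; exact hy1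
  have hy2' : y2 ∈ T q' := by rw [I.hq]; exact hy2
  have hx1' : x1 ∈ T v' := by rw [I.hv]; exact hx1
  have hx2' : x2 ∈ T v' := by rw [I.hv]; exact hx2
  -- the other missing colours
  have p12 : y1 ∉ T (v + q' - z) := tr a1 hy1 n1
  have p13 : x1 ∉ T (v' + q - z) := tr b1 hx1 m1
  have p24 : x2 ∉ T (v' + q' - z) := tr b3 hx2 m2
  have p34 : y2 ∉ T (v' + q' - z) := tr a2 hy2 n2
  intro x hx y hy
  have hxx : x = x1 ∨ x = x2 := by
    have h5 := hx.2
    rw [hX] at h5
    rcases h5 with h5 | h5 | h5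
    · exact Or.inl h5
    · exact Or.inr h5
    · rw [mem_singleton_iff] at h5
      exact absurd (h5 ▸ hx.1) hrz
  have hyy : y = y1 ∨ y = y2 := by
    have h5 : y ∈ T q := by rw [I.c]; exact hy.2
    rw [hY] at h5
    rcases h5 with h5 | h5 | h5
    · exact Or.inl h5
    · exact Or.inr h5
    · rw [mem_singleton_iff] at h5
      exact absurd (h5 ▸ hy.1) hrz'
  rcases hxx with rfl | rfl <;> rcases hyy with rfl | rfl
  · exact ⟨v, by simp, q, by simp, m1, n1⟩
  · exact ⟨v', by simp, q, by simp, p13, n2⟩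
  · exact ⟨v, by simp, q', by simp, m2, p12⟩
  · exact ⟨v', by simp, q', by simp, p24, p34⟩

/-- two-pair points next to a point with four colours are locally finite -/
theorem fin533 (h : Irr U T) (hmin : Mn U T)
    (h54 : ∀ x y, 5 ≤ (T x).ncard → 4 ≤ (T y).ncard → dist x y ≠ 1) {S : Set ℂ}
    (hD : ∀ w ∈ S, w ∈ Dset T) (hy : ∀ w ∈ S, ∃ y, dist y w = 1 ∧ 4 ≤ (T y).ncard) (c : ℂ)
    (R : ℝ) : (S ∩ closedBall c R).Finite := by
  by_contra hinf
  obtain ⟨x, -, hx⟩ := Set.Infinite.exists_accPt_of_subset_isCompact hinf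
    (isCompact_closedBall c R) inter_subset_right
  rw [accPt_iff_frequently] at hx
  have hxc : x ∈ closure (Dset T) := by
    rw [mem_closure_iff_frequently]
    exact hx.mono fun w hw => hD w hw.2.1
  have h4 := h.four_of_closure hxc
  have h5 : 5 ≤ (T x).ncard := by
    by_contra hcon
    have h6 := h.isolated_D_of hmin h54 (z := x) (by omega)
    refine hx ?_
    filter_upwards [h6] with w h7 h8
    exact h8.1 (h7 (hD w h8.2.1))
  have hopen : IsOpen {y | (T y).ncard ≤ 3} := by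
    rw [isOpen_iff_mem_nhds]
    intro y hy3
    filter_upwards [h.nhd y] with y' hy'
    exact (Set.ncard_le_ncard hy' (Set.toFinite _)).trans hy3
  have hsub : sphere x 1 ⊆ {y | (T y).ncard ≤ 3} := by
    intro y hy1
    show (T y).ncard ≤ 3
    by_contra hcon
    exact h54 x y h5 (by omega) (by rw [dist_comm]; exact hy1)
  obtain ⟨δ, hδ, hth⟩ := (isCompact_sphere x 1).exists_thickening_subset_open hopen hsub
  refine hx ?_
  filter_upwards [ball_mem_nhds x hδ] with w hw hwS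
  obtain ⟨y, hyd, hy4⟩ := hy w hwS.2.1
  have h6 : y ∈ Metric.thickening δ (sphere x 1) := by
    rw [Metric.mem_thickening_iff]
    refine ⟨y - (w - x), ?_, ?_⟩
    · rw [mem_sphere, dist_eq_norm]
      rw [dist_eq_norm] at hyd
      rw [← hyd]; congr 1; ring
    · rw [dist_eq_norm, sub_sub_cancel, ← dist_eq_norm]
      exact hw
  have h7 : (T y).ncard ≤ 3 := hth h6
  omega

/-- **no centre with a (2, 2)-network** -/
theorem no_22 (h : Irr U T) (hmin : Mn U T)
    (h54 : ∀ x y, 5 ≤ (T x).ncard → 4 ≤ (T y).ncard → dist x y ≠ 1)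
    (hA : ∀ z v v' q q', Is22 T z v v' q q' → Is11 T (v + q - z) v q ∧
      T (v + q - z) ∩ T q = T (v + q' - z) ∩ T q ∧ T (v + q - z) ∩ T v = T (v' + q - z) ∩ T v)
    (hB : ∀ w v q, Nb T w v q → (∃ y, dist y w = 1 ∧ 4 ≤ (T y).ncard) ∧
      ∃ v1 v2 q1 q2, AA T w v v1 ∧ AA T w q q1 ∧ Is22 T w v1 v2 q1 q2) :
    ∀ z v v' q q', ¬ Is22 T z v v' q q' := by
  intro z v v' q q' I₀
  let ι := {x : ℂ × ℂ × ℂ // Nb T x.1 x.2.1 x.2.2}
  have hbox : ∀ i : ι, ∃ B : Box, B.w = i.1.1 ∧ B.Ok2 T ∧ i.1.2.1 ∈ B.K ∧ i.1.2.2 ∈ B.L ∧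
      ∀ p ∈ B.K, ∀ r ∈ B.L, T p ∪ T r = univ →
        (p = i.1.2.1 ∧ r = i.1.2.2) ∨ ∃ v2 q2, Is22 T i.1.1 p v2 r q2 := fun i =>
    exists_box h hmin (fun z v v' q q' I => (hA z v v' q q' I).1)
      (fun w v q hN => (hB w v q hN).2) i.2
  choose B hw hOk hv hq hcorn using hbox
  -- all borders of a centre are covered
  have hcover : ∀ {M v v' q q' : ℂ}, Is22 T M v v' q q' →
      ∃ a b c d, DPt T M a b c d ∧ ∀ x ∈ ({a, b} : Set (Fin 6)),
        ∀ y ∈ ({c, d} : Set (Fin 6)), ∃ j, x ∉ T (B j).w ∧ y ∉ T (B j).w ∧ M ∈ (B j).cell := by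
    intro M v v' q q' I
    obtain ⟨a, b, hab, hTab⟩ := Set.ncard_eq_two.1 I.ev.card_i
    obtain ⟨c, d, hcd, hTcd⟩ := Set.ncard_eq_two.1 I.ev.card_s
    refine ⟨a, b, c, d, I.ev.dpt h hTab hTcd, fun x hx y hy => ?_⟩
    obtain ⟨r, hr, s, hs, h1, h2⟩ := miss533 h (fun z v v' q q' I => (hA z v v' q q' I).2) I x
      (by rw [hTab]; exact hx) y (by rw [hTcd]; exact hy)
    have hNb : Nb T (r + s - M) r s := by
      rcases hr with rfl | hr
      · rcases hs with rfl | hs
        · exact I.nb (hA _ _ _ _ _ I).1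
        · rw [mem_singleton_iff] at hs; subst hs
          exact I.s2.nb (hA _ _ _ _ _ I.s2).1
      · rw [mem_singleton_iff] at hr; subst hr
        rcases hs with rfl | hs
        · exact I.s1.nb (hA _ _ _ _ _ I.s1).1
        · rw [mem_singleton_iff] at hs; subst hs
          exact I.s1.s2.nb (hA _ _ _ _ _ I.s1.s2).1
    refine ⟨⟨(r + s - M, r, s), hNb⟩, ?_, ?_, ?_⟩
    · rw [hw]; exact h1
    · rw [hw]; exact h2
    · refine ⟨r, hv ⟨(r + s - M, r, s), hNb⟩, s, hq ⟨(r + s - M, r, s), hNb⟩, ?_⟩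
      rw [hw]
      show M = r + s - (r + s - M)
      ring
  have hcor : ∀ i, ∀ p ∈ (B i).K, ∀ q ∈ (B i).L, T p ∪ T q = univ → p + q ≠ 2 * (B i).w →
      ∃ a b c d, DPt T (p + q - (B i).w) a b c d ∧ ∀ x ∈ ({a, b} : Set (Fin 6)),
        ∀ y ∈ ({c, d} : Set (Fin 6)), ∃ j, x ∉ T (B j).w ∧ y ∉ T (B j).w ∧
          p + q - (B i).w ∈ (B j).cell := by
    intro i p hp r hr hu _
    rw [hw]
    rcases hcorn i p hp r hr hu with ⟨rfl, rfl⟩ | ⟨v2, q2, I⟩
    · obtain ⟨-, v', q', I⟩ := i.2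
      exact hcover I
    · -- the opposite corner
      have I1 := (hA _ _ _ _ _ I).1
      obtain ⟨-, v3, v4, q3, q4, -, -, I3⟩ := hB _ _ _ (I.nb I1)
      exact hcover I3
  have hfin : ∀ R, {i : ι | (B i).w ∈ closedBall (0 : ℂ) R}.Finite := by
    intro R
    have hS : ({w | ∃ v q, Nb T w v q} ∩ closedBall (0 : ℂ) R).Finite := by
      refine fin533 h hmin h54 ?_ ?_ 0 R
      · rintro w ⟨v, q, hN⟩
        obtain ⟨a, b, hab, hTab⟩ := Set.ncard_eq_two.1 hN.1.ev.card_i
        obtain ⟨c, d, hcd, hTcd⟩ := Set.ncard_eq_two.1 hN.1.ev.card_s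
        exact ⟨a, b, c, d, hN.1.ev.dpt h hTab hTcd⟩
      · rintro w ⟨v, q, hN⟩
        exact (hB w v q hN).1
    have hinj : Function.Injective fun i : ι => (i.1.1, T i.1.2.1) := by
      rintro ⟨⟨w, v, q⟩, hN⟩ ⟨⟨w', v', q'⟩, hN'⟩ he
      simp only [Prod.mk.injEq] at he
      obtain ⟨rfl, h2⟩ := he
      have h3 : v = v' := hN'.1.uv v hN.1.ev.dist h2
      have h4 : q = q' := hN'.1.uq q hN.1.eq.dist (by
        have h5 : T q = (T v)ᶜ := hN.1.c
        have h6 : T q' = (T v')ᶜ := hN'.1.c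
        rw [h5, h6, h2])
      subst h3 h4
      rfl
    refine Set.Finite.of_finite_image (f := fun i : ι => (i.1.1, T i.1.2.1)) ?_ hinj.injOn
    refine (hS.prod (Set.toFinite (univ : Set (Set (Fin 6))))).subset ?_
    rintro _ ⟨i, hi, rfl⟩
    have hi : (B i).w ∈ closedBall (0 : ℂ) R := hi
    rw [hw] at hi
    exact ⟨⟨⟨_, _, i.2⟩, hi⟩, mem_univ _⟩
  have hno := no_boxes2 h hmin B hOk hfin hcor
  -- the centre
  have i₀ : Nb T (v + q - z) v q := I₀.nb (hA _ _ _ _ _ I₀).1
  have hz : z ∈ (B ⟨(v + q - z, v, q), i₀⟩).oo T := by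
    refine ⟨fun i hi => ?_, v, hv ⟨(v + q - z, v, q), i₀⟩, q, hq ⟨(v + q - z, v, q), i₀⟩, ?_⟩
    · rw [hw] at hi
      have hi : i ∉ T (v + q - z) := hi
      by_contra hcon
      by_cases hiv : i ∈ T v
      · have N := nd_of_ee h I₀.ev I₀.eq I₀.c
        exact N.ne_other (N.other.unique h N hiv hi hcon)
      · have N := nd_of_ee h I₀.eq I₀.ev (by rw [I₀.c, compl_compl])
        have hiq : i ∈ T q := by rw [I₀.c]; exact hiv
        have hi' : i ∉ T (q + v - z) := by rw [add_comm]; exact hi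
        exact N.ne_other (N.other.unique h N hiq hi' hcon)
    · rw [hw]
      show z = v + q - (v + q - z)
      ring
  refine hno _ z hz ?_
  obtain ⟨i, hi⟩ : (T z ∩ T v).Nonempty := by
    rw [← Set.ncard_pos (Set.toFinite _), I₀.ev.card_i]; norm_num
  exact h.mem_XX (by rw [dist_comm]; exact I₀.ev.dist) hi.1 (h.sub v hi.2)

/-- **no centre with a (1, 1)-network**, if its other network is a (2, 2)-network -/
theorem no_11 (h : Irr U T) (hmin : Mn U T)
    (h54 : ∀ x y, 5 ≤ (T x).ncard → 4 ≤ (T y).ncard → dist x y ≠ 1)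
    (hA : ∀ z v v' q q', Is22 T z v v' q q' → Is11 T (v + q - z) v q ∧
      T (v + q - z) ∩ T q = T (v + q' - z) ∩ T q ∧ T (v + q - z) ∩ T v = T (v' + q - z) ∩ T v)
    (hB : ∀ w v q, Nb T w v q → (∃ y, dist y w = 1 ∧ 4 ≤ (T y).ncard) ∧
      ∃ v1 v2 q1 q2, AA T w v v1 ∧ AA T w q q1 ∧ Is22 T w v1 v2 q1 q2)
    (hC : ∀ w v q, Is11 T w v q → ∃ v1 v2 q1 q2, Is22 T w v1 v2 q1 q2) :
    ∀ w v q, ¬ Is11 T w v q := by
  intro w v q O
  obtain ⟨v1, v2, q1, q2, I⟩ := hC w v q O
  exact no_22 h hmin h54 hA hB _ _ _ _ _ I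

end Vale.Agent.P032.H533
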