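import Vale.Agent.P032.H533.Box2
import Vale.Agent.P032.H471.Inst
import Vale.Agent.P032.S5.H813.ArcF

/-!
# P032: the box of two closed exact arcs with plain ends

`cln533` : an end of a pair of complementary ends is clean if the partner has at most four colours.
`arc_set533` : the closed arc between two clean ends is a relatively clopen part of the closure of
the exact arcs.
-/

open Set Filter Topology Metric

noncomputable section

namespace Vale.Agent.P032.H533

open Vale.Agent.P032.Six Vale.Agent.P032.S5.H767 Vale.Agent.P032.S5.H349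
  Vale.Agent.P032.S5.H450 Vale.Agent.P032.H471 Vale.Agent.P032.H926

variable {U : Fin 6 → Set ℂ} {T : ℂ → Set (Fin 6)} {z w v q v' : ℂ} {a b c d : Fin 6}

/-- a clean end -/
theorem cln533 (h : Irr U T) (hv : EE T z v) (hq : EE T z q) (hc : T q = (T v)ᶜ)
    (h4 : (T (v + q - z)).ncard ≤ 4) : Cln T z v := by
  obtain ⟨a, b, c, d, e, f, C, -, -⟩ := exists_ncfg h hv hv.dist rfl hq.dist hc h4
  obtain ⟨o, hE, -⟩ := C.lp1 h
  have hP := C.inter
  have h1 := hE.arc.and (hE.after.mono fun t ht => ht.2)
  obtain ⟨ε, hε, hs⟩ := mem_nhdsGT_iff_exists_Ioo_subset.1 h1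
  refine ⟨o, ε, hE.o1, hε, fun t ht => ?_, fun t ht => ?_⟩
  · have := (hs ht).1
    rw [neg_mul] at this
    rw [hP]; exact this
  · rw [hP]; exact (hs ht).2

/-- near a clean end the closure of the exact arcs is on one side -/
theorem end_near533 (h : Irr U T) {P : Set (Fin 6)} {σ l : ℝ} (hP : T z ∩ T v = P)
    (hcl : Cln T z v) (hO : OEnd T z v σ) (hl : 0 < l) :
    ∀ᶠ y in 𝓝[sphere z 1] v, y ∈ closure (Ex T z P) →
      ∃ t ∈ Icc 0 l, y = z + (v - z) * cis (-(σ * t)) := by
  obtain ⟨o, ε, ho, hε, h1, h2⟩ := hcl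
  obtain ⟨hσ, hd, -, -, -, ε', hε', h3⟩ := hO
  have hoσ : o = σ := by
    by_contra hne
    have h4 : o = -σ := by
      rcases ho with rfl | rfl <;> rcases hσ with rfl | rfl
      · exact absurd rfl hne
      · norm_num
      · norm_num
      · exact absurd rfl hne
    have hm : 0 < min ε ε' := lt_min hε hε'
    have ht : min ε ε' / 2 ∈ Ioo 0 ε := ⟨by linarith, by have := min_le_left ε ε'; linarith⟩
    have ht' : min ε ε' / 2 ∈ Ioo 0 ε' := ⟨by linarith, by have := min_le_right ε ε'; linarith⟩
    have h5 := h2 _ ht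
    have h6 := h3 _ ht'
    rw [h4, neg_mul] at h5
    exact h5 (by rw [h6])
  subst hoσ
  rw [eventually_circle hd]
  have hm : 0 < min ε l := lt_min hε hl
  filter_upwards [Metric.ball_mem_nhds (0 : ℝ) hm] with s hs hy
  rw [mem_ball, Real.dist_eq, sub_zero, abs_lt] at hs
  have hoo : o * o = 1 := by rcases ho with rfl | rfl <;> norm_num
  have habs : |o * s| = |s| := by
    rcases ho with rfl | rfl
    · rw [one_mul]
    · rw [neg_one_mul, abs_neg]
  have hs' : |s| < min ε l := abs_lt.2 hs
  rcases le_or_gt (o * s) 0 with h5 | h5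
  · refine ⟨-(o * s), ⟨by linarith, ?_⟩, ?_⟩
    · have := min_le_right ε l
      have h6 := neg_abs_le (o * s)
      rw [habs] at h6
      linarith
    · have : -(o * -(o * s)) = s := by linear_combination s * hoo
      rw [this]
  · exfalso
    have h6 : o * s ∈ Ioo 0 ε := by
      refine ⟨h5, ?_⟩
      have := min_le_left ε l
      have h6 := le_abs_self (o * s)
      rw [habs] at h6
      linarith
    refine h2 _ h6 ?_
    have h7 : o * (o * s) = s := by linear_combination s * hoo
    rw [h7, hP]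
    exact sub_of_closure h hy

/-- **the closed arc** between two clean ends -/
theorem arc_set533 (h : Irr U T) {P : Set (Fin 6)} (hA : AA T z v v') (hP : T z ∩ T v = P)
    (h1 : Cln T z v) (h2 : Cln T z v') :
    ∃ K : Set ℂ, IsClosed K ∧ v ∈ K ∧ v' ∈ K ∧ K ⊆ closure (Ex T z P) ∧
      (∀ p ∈ K, ∀ᶠ y in 𝓝 p, y ∈ closure (Ex T z P) → y ∈ K) ∧
      ∀ p ∈ K, p = v ∨ p = v' ∨ T p = P := by
  have hpair := hA.pair'
  obtain ⟨o, l, hl0, hl, hv, hv', e, harc⟩ := hA
  have hd := hv.2.1
  have ho := hv.1
  have hoo : o * o = 1 := by rcases ho with rfl | rfl <;> norm_num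
  have hP2 : P.ncard = 2 := by rw [← hP]; exact hv.2.2.2.2.1
  have hPz : P ⊆ T z := by rw [← hP]; exact inter_subset_left
  let f : ℝ → ℂ := fun t => z + (v - z) * cis (-(o * t))
  have hf : Continuous f :=
    continuous_const.add (continuous_const.mul (continuous_cis.comp (by fun_prop)))
  have hf0 : f 0 = v := by
    show z + (v - z) * cis (-(o * 0)) = v
    rw [mul_zero, neg_zero, cis_zero394, mul_one, add_sub_cancel]
  have hfl : f l = v' := e.symm
  have hin : ∀ t ∈ Ioo 0 l, f t ∈ Ex T z P := by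
    intro t ht
    have h5 : T (f t) = P := by rw [← hP]; exact harc t ht
    refine ⟨?_, h.pair_open hP2 hPz h5.subset⟩
    show dist (z + (v - z) * cis (-(o * t))) z = 1
    rw [dist_eq_norm, add_sub_cancel_left, norm_mul, norm_cis, mul_one, ← dist_eq_norm]
    exact hd
  have hsub : f '' Icc 0 l ⊆ closure (Ex T z P) := by
    rintro _ ⟨t, ht, rfl⟩
    have h5 : t ∈ closure (Ioo 0 l) := by rw [closure_Ioo hl0.ne]; exact ht
    exact map_mem_closure hf h5 hin
  refine ⟨f '' Icc 0 l, (isCompact_Icc.image hf).isClosed, ⟨0, ⟨le_rfl, hl0.le⟩, hf0⟩,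
    ⟨l, ⟨hl0.le, le_rfl⟩, hfl⟩, hsub, ?_, ?_⟩
  · rintro _ ⟨t, ht, rfl⟩
    have hsph : dist (f t) z = 1 := dist_of_closure (hsub ⟨t, ht, rfl⟩)
    have key : ∀ᶠ y in 𝓝[sphere z 1] (f t), y ∈ closure (Ex T z P) → y ∈ f '' Icc 0 l := by
      rcases eq_or_lt_of_le ht.1 with h5 | h5
      · rw [← h5, hf0]
        filter_upwards [end_near533 h hP h1 hv hl0] with y hy hyc
        obtain ⟨s, hs, rfl⟩ := hy hyc
        exact ⟨s, hs, rfl⟩
      rcases eq_or_lt_of_le ht.2 with h6 | h6
      · rw [h6, hfl]
        filter_upwards [end_near533 h (hpair.trans hP) h2 hv' hl0] with y hy hyc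
        obtain ⟨s, hs, rfl⟩ := hy hyc
        refine ⟨l - s, ⟨by linarith [hs.2], by linarith [hs.1]⟩, ?_⟩
        show z + (v - z) * cis (-(o * (l - s))) = z + (v' - z) * cis (-(-o * s))
        rw [e, add_sub_cancel_left, mul_assoc, ← cis_add394]
        congr 3
        ring
      · rw [eventually_circle hsph]
        have hm : 0 < min t (l - t) := lt_min h5 (by linarith)
        filter_upwards [Metric.ball_mem_nhds (0 : ℝ) hm] with s hs _
        rw [mem_ball, Real.dist_eq, sub_zero] at hs
        have habs : |o * s| = |s| := by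
          rcases ho with rfl | rfl
          · rw [one_mul]
          · rw [neg_one_mul, abs_neg]
        have h7 := abs_le.1 (habs.le.trans hs.le)
        have h8 := min_le_left t (l - t)
        have h9 := min_le_right t (l - t)
        refine ⟨t - o * s, ⟨by linarith [h7.2], by linarith [h7.1]⟩, ?_⟩
        show z + (v - z) * cis (-(o * (t - o * s))) =
          z + (z + (v - z) * cis (-(o * t)) - z) * cis s
        rw [add_sub_cancel_left, mul_assoc, ← cis_add394]
        congr 3
        linear_combination s * hoo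
    have h10 := mem_nhdsWithin_iff_exists_mem_nhds_inter.1 key
    obtain ⟨N, hN, hNs⟩ := h10
    filter_upwards [hN] with y hy hyc
    exact hNs ⟨hy, dist_of_closure hyc⟩ hyc
  · rintro _ ⟨t, ht, rfl⟩
    rcases eq_or_lt_of_le ht.1 with h5 | h5
    · left; rw [← h5, hf0]
    rcases eq_or_lt_of_le ht.2 with h6 | h6
    · right; left; rw [h6, hfl]
    · right; right
      rw [← hP]; exact harc t ⟨h5, h6⟩

end Vale.Agent.P032.H533
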