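import Vale.Agent.P032.H926.Box

/-!
# P032: boxes without a bound on the palettes

`Box.Ok2` : the conditions of `Box.Ok` (926) where the bound four is asked only at the points of the
closed cell which have all the free colours.  `no_boxes2` : the theorem `no_boxes` for them.
`four_of_box` : this bound holds away from the complementary corners (only `Irr`, `Mn`).
-/

open Set Filter Topology Metric

noncomputable section

namespace Vale.Agent.P032.H926

open Vale.Agent.P032.Six Vale.Agent.P032.S5.H767 Vale.Agent.P032.H187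

variable {U : Fin 6 → Set ℂ} {T : ℂ → Set (Fin 6)}

/-- a cell point over an end of an exact arc: the pair of the colour of the end -/
theorem exists_pair533 (h : Irr U T) {w p q u : ℂ} {a b c d : Fin 6} (D : DPt T w a b c d)
    (hpd : dist p w = 1) (hqd : dist q w = 1) (hu : u = p + q - w)
    (hpq : p ≠ q) (hpq2 : p + q ≠ 2 * w) (ha : a ∈ T u) {l : Fin 6}
    (hlu : l ∈ T u) (hl : l ∉ T w) (hpT : T p = {a, b, l}) :
    ∃ g, dist g u = 1 ∧ T g = {l, a} := by
  have hpu : dist p u = 1 := by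
    rw [dist_eq_norm] at hqd ⊢
    rw [hu, ← hqd, ← norm_neg]; congr 1; ring
  have hwu : w ≠ u := by
    intro h5
    exact hpq2 (by rw [← h5] at hu; linear_combination -hu)
  have hwu2 : w + u ≠ 2 * p := by
    intro h5
    exact hpq (by rw [hu] at h5; linear_combination -h5)
  by_contra hcon
  push Not at hcon
  have hJ : ∀ᶠ g in 𝓝[sphere u 1] p, b ∈ T g := by
    filter_upwards [mem_nhdsWithin_of_mem_nhds (h.nhd p), self_mem_nhdsWithin] with g h1 h2
    by_contra hb
    have h3 : T g ⊆ {l, a} := by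
      intro i hi
      have := h1 hi
      rw [hpT] at this
      rcases this with h4 | h4 | h4
      · exact Or.inr h4
      · exact absurd (h4 ▸ hi) hb
      · exact Or.inl h4
    have hal : l ≠ a := fun h4 => hl (by rw [h4]; exact ab_sub D (by simp))
    have h5 := h.pair_open (z := u) (y := g) (Set.ncard_pair hal) (by
      rintro i (rfl | h6)
      · exact hlu
      · rw [mem_singleton_iff] at h6; subst h6; exact ha) h3
    have h6 : T g = {l, a} := h5.self_of_nhdsWithin h2
    exact hcon g h2 h6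
  exact line_free h hpu hJ hpd hwu hwu2 (h.sub w (ab_sub D (by simp)))

/-- **a point of a closed cell with both free colours has at most four colours**, if it is not a
complementary corner -/
theorem four_of_box (h : Irr U T) (hmin : Mn U T) {w p q : ℂ} {a b c d : Fin 6}
    (D : DPt T w a b c d) (hp : p ∈ closure (Ex T w {a, b})) (hq : q ∈ closure (Ex T w {c, d}))
    (hp3 : (T p).ncard ≤ 3) (hq3 : (T q).ncard ≤ 3) (hpq : p ≠ q) (hpq2 : p + q ≠ 2 * w)
    (col : ∀ i, i ∉ T w → i ∈ T (p + q - w)) (hnc : T p ∪ T q ≠ univ) :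
    (T (p + q - w)).ncard ≤ 4 := by
  have hpd := dist_of_closure hp
  have hqd := dist_of_closure hq
  by_contra hcon
  push Not at hcon
  have hcw := card_compl D
  have hsub : (T w)ᶜ ⊆ T (p + q - w) := col
  have h3 : 3 ≤ (T (p + q - w) ∩ T w).ncard := by
    have h4 := Set.ncard_inter_add_ncard_sdiff_eq_ncard (T (p + q - w)) (T w) (Set.toFinite _)
    have h5 : T (p + q - w) \ T w ⊆ (T w)ᶜ := fun i hi => hi.2
    have h6 := Set.ncard_le_ncard h5 (Set.toFinite _)
    omega
  have hab : ∃ m ∈ ({a, b} : Set (Fin 6)), m ∈ T (p + q - w) := by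
    by_contra hno
    push Not at hno
    have h4 : T (p + q - w) ∩ T w ⊆ {c, d} := by
      rintro i ⟨hi, hiw⟩
      rw [D.pal] at hiw
      rcases hiw with rfl | rfl | h5
      · exact absurd hi (hno _ (by simp))
      · exact absurd hi (hno _ (by simp))
      · exact h5
    have h5 := Set.ncard_le_ncard h4 (Set.toFinite _)
    rw [Set.ncard_pair D.cd] at h5
    omega
  have hcd : ∃ m ∈ ({c, d} : Set (Fin 6)), m ∈ T (p + q - w) := by
    by_contra hno
    push Not at hno
    have h4 : T (p + q - w) ∩ T w ⊆ {a, b} := by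
      rintro i ⟨hi, hiw⟩
      rw [D.pal] at hiw
      rcases hiw with rfl | rfl | rfl | h5
      · simp
      · simp
      · exact absurd hi (hno _ (by simp))
      · rw [mem_singleton_iff] at h5; subst h5
        exact absurd hi (hno _ (by simp))
    have h5 := Set.ncard_le_ncard h4 (Set.toFinite _)
    rw [Set.ncard_pair D.ab] at h5
    omega
  obtain ⟨m, hm, hmu⟩ := hab
  obtain ⟨m', hm', hmu'⟩ := hcd
  obtain ⟨l, hl, hpT⟩ := end_three h hmin D hp hqd hp3 rfl hpq hpq2 hm hmu
  obtain ⟨l', hl', hqT⟩ := end_three h hmin D.swap (u := p + q - w) hq hpd hq3 (by ring) hpq.symm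
    (by rw [add_comm]; exact hpq2) hm' hmu'
  have hll : l = l' := by
    by_contra hll
    apply hnc
    have hE : ({l, l'} : Set (Fin 6)) = (T w)ᶜ := by
      refine Set.eq_of_subset_of_ncard_le ?_ (by rw [card_compl D, Set.ncard_pair hll])
        (Set.toFinite _)
      rintro i (rfl | h6)
      · exact hl
      · rw [mem_singleton_iff] at h6; subst h6; exact hl'
    rw [eq_univ_iff_forall]
    intro i
    by_cases hi : i ∈ T w
    · rw [D.pal] at hi
      rcases hi with rfl | rfl | rfl | h6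
      · left; rw [hpT]; simp
      · left; rw [hpT]; simp
      · right; rw [hqT]; simp
      · rw [mem_singleton_iff] at h6; subst h6
        right; rw [hqT]; simp
    · have h7 : i ∈ ({l, l'} : Set (Fin 6)) := by rw [hE]; exact hi
      rcases h7 with rfl | h7
      · left; rw [hpT]; simp
      · rw [mem_singleton_iff] at h7; subst h7
        right; rw [hqT]; simp
  subst hll
  obtain ⟨l2, hl2, hne⟩ : ∃ l2, l2 ∉ T w ∧ l2 ≠ l := by
    by_contra hno
    push Not at hno
    have h4 : (T w)ᶜ ⊆ {l} := fun i hi => hno i hi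
    have h5 := Set.ncard_le_ncard h4 (Set.toFinite _)
    rw [Set.ncard_singleton] at h5
    omega
  have hlu := col l hl
  refine h.degree hmin (z := p + q - w) (a := l) (d := l2) (by omega) hlu (col l2 hl2) hne.symm ?_
  intro j hj hjl hjl2
  have hjw : j ∈ T w := by
    by_contra hjw
    have hE : ({l, l2} : Set (Fin 6)) = (T w)ᶜ := by
      refine Set.eq_of_subset_of_ncard_le ?_ (by rw [card_compl D, Set.ncard_pair hne.symm])
        (Set.toFinite _)
      rintro i (rfl | h6)
      · exact hl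
      · rw [mem_singleton_iff] at h6; subst h6; exact hl2
    have h7 : j ∈ ({l, l2} : Set (Fin 6)) := by rw [hE]; exact hjw
    rcases h7 with h7 | h7
    · exact hjl h7
    · exact hjl2 h7
  rw [D.pal] at hjw
  rcases hjw with rfl | rfl | rfl | h6
  · exact exists_pair533 h D hpd hqd rfl hpq hpq2 hj hlu hl hpT
  · exact exists_pair533 h D.swap12 hpd hqd rfl hpq hpq2 hj hlu hl (by
      rw [hpT]; ext i; simp only [mem_insert_iff, mem_singleton_iff]; tauto)
  · exact exists_pair533 h D.swap hqd hpd (by ring) hpq.symm (by rw [add_comm]; exact hpq2) hj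
      hlu hl hqT
  · rw [mem_singleton_iff] at h6; subst h6
    exact exists_pair533 h D.swap.swap12 hqd hpd (by ring) hpq.symm
      (by rw [add_comm]; exact hpq2) hj hlu hl (by
      rw [hqT]; ext i; simp only [mem_insert_iff, mem_singleton_iff]; tauto)

namespace Box

/-- the conditions on a box, without a bound on all the palettes of the cell -/
structure Ok2 (T : ℂ → Set (Fin 6)) (B : Box) : Prop where
  D : DPt T B.w B.a B.b B.c B.d
  cK : IsClosed B.K
  cL : IsClosed B.L
  sK : B.K ⊆ closure (Ex T B.w {B.a, B.b})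
  sL : B.L ⊆ closure (Ex T B.w {B.c, B.d})
  nK : ∀ p ∈ B.K, ∀ᶠ p' in 𝓝 p, p' ∈ closure (Ex T B.w {B.a, B.b}) → p' ∈ B.K
  nL : ∀ q ∈ B.L, ∀ᶠ q' in 𝓝 q, q' ∈ closure (Ex T B.w {B.c, B.d}) → q' ∈ B.L
  tK : ∀ p ∈ B.K, (T p).ncard ≤ 3
  tL : ∀ q ∈ B.L, (T q).ncard ≤ 3
  u4 : ∀ u ∈ B.oo T, (T u).ncard ≤ 4

variable {B : Box}

theorem Ok2.compK (h : B.Ok2 T) : IsCompact B.K :=
  (isCompact_cl _).of_isClosed_subset h.cK h.sK

theorem Ok2.compL (h : B.Ok2 T) : IsCompact B.L :=
  (isCompact_cl _).of_isClosed_subset h.cL h.sL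

theorem Ok2.isClosed_cell (h : B.Ok2 T) : IsClosed B.cell := by
  have h1 : B.cell = (fun x : ℂ × ℂ => x.1 + x.2 - B.w) '' (B.K ×ˢ B.L) := by
    ext u
    simp only [cell, mem_ofPred_eq, mem_image, Prod.exists, Set.mem_prod]
    constructor
    · rintro ⟨p, hp, q, hq, rfl⟩
      exact ⟨p, q, ⟨hp, hq⟩, rfl⟩
    · rintro ⟨p, q, ⟨hp, hq⟩, rfl⟩
      exact ⟨p, hp, q, hq, rfl⟩
  rw [h1]
  exact ((h.compK.prod h.compL).image (by fun_prop)).isClosed

theorem Ok2.isClosed_oo (hB : B.Ok2 T) (h : Irr U T) : IsClosed (B.oo T) := by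
  have h1 : B.oo T = (⋂ i ∈ {i | i ∉ T B.w}, {u | i ∈ T u}) ∩ B.cell := by
    ext u
    simp only [oo, mem_ofPred_eq, mem_inter_iff, mem_iInter]
  rw [h1]
  exact (isClosed_biInter fun i _ => h.closed i).inter hB.isClosed_cell

theorem Ok2.cell_sub (h : B.Ok2 T) : B.cell ⊆ closedBall B.w 2 := by
  rintro u ⟨p, hp, q, hq, rfl⟩
  have h1 := dist_of_closure (h.sK hp)
  have h2 := dist_of_closure (h.sL hq)
  rw [mem_closedBall, dist_eq_norm]
  rw [dist_eq_norm] at h1 h2
  have h3 : p + q - B.w - B.w = (p - B.w) + (q - B.w) := by ring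
  rw [h3]
  refine (norm_add_le _ _).trans ?_
  rw [h1, h2]; norm_num

/-- the data at a point of `oo` -/
theorem Ok2.data (hB : B.Ok2 T) (h : Irr U T) (hmin : Mn U T) {u : ℂ} (hu : u ∈ B.oo T) :
    ∃ p ∈ B.K, ∃ q ∈ B.L, Cl U T B.w B.a B.b B.c B.d p q u ∧ Cl U T B.w B.c B.d B.a B.b q p u := by
  obtain ⟨hcol, p, hp, q, hq, rfl⟩ := hu
  have hp3 := hB.tK p hp
  have hq3 := hB.tL q hq
  have hpq : p ≠ q := by
    rintro rfl
    have h1 : T B.w ⊆ T p := by
      have h2 := sub_of_closure h (hB.sK hp)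
      have h3 := sub_of_closure h (hB.sL hq)
      rw [hB.D.pal]
      rintro i (rfl | rfl | rfl | rfl)
      exacts [h2 (by simp), h2 (by simp), h3 (by simp), h3 (by simp)]
    have h5 := Set.ncard_le_ncard h1 (Set.toFinite _)
    rw [DPt_card hB.D] at h5
    omega
  have hex : ∃ i, i ∉ T B.w := by
    by_contra hcon
    push Not at hcon
    have h1 : (T B.w)ᶜ = ∅ := by
      rw [compl_empty_iff, eq_univ_iff_forall]; exact hcon
    have h2 := card_compl hB.D
    rw [h1, Set.ncard_empty] at h2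
    omega
  have hpq2 : p + q ≠ 2 * B.w := by
    intro h1
    obtain ⟨i, hi⟩ := hex
    have h2 : p + q - B.w = B.w := by linear_combination h1
    exact hi (by have := hcol i hi; rwa [h2] at this)
  have hu4 : (T (p + q - B.w)).ncard ≤ 4 := hB.u4 _ ⟨hcol, p, hp, q, hq, rfl⟩
  exact ⟨p, hp, q, hq, ⟨h, hmin, hB.D, hB.sK hp, dist_of_closure (hB.sL hq), hp3, rfl, hpq, hpq2,
    hu4, hcol⟩, ⟨h, hmin, hB.D.swap, hB.sL hq, dist_of_closure (hB.sK hp), hq3, by ring, hpq.symm,
      by rw [add_comm]; exact hpq2, hu4, hcol⟩⟩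

/-- near a point of `oo` the points with the free colours are in `oo` -/
theorem Ok2.near (hB : B.Ok2 T) (h : Irr U T) (hmin : Mn U T) {u : ℂ} (hu : u ∈ B.oo T) :
    ∀ᶠ y in 𝓝 u, (∀ i, i ∉ T B.w → i ∈ T y) → y ∈ B.oo T := by
  obtain ⟨p, hpK, q, hqL, C, C'⟩ := hB.data h hmin hu
  have hr : 0 < dist p q / 2 := by
    have := dist_pos.2 C.ne
    linarith
  have hwu : u ≠ B.w := C.wu.symm
  have h1 := near_cl h hmin hB.D (hB.sK hpK) (hB.tK p hpK)
  have h2 := near_cl h hmin hB.D.swap (hB.sL hqL) (hB.tL q hqL)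
  filter_upwards [coord C.hpd C.hqd C.hu C.ne C.ne2
    (inter_mem (inter_mem h1 (hB.nK p hpK)) (ball_mem_nhds p hr))
    (inter_mem (inter_mem h2 (hB.nL q hqL)) (ball_mem_nhds q hr)), isOpen_ne.mem_nhds hwu]
    with y hy hyw hcol
  obtain ⟨p', ⟨⟨hp1, hp1'⟩, hp2⟩, q', ⟨⟨hq1, hq1'⟩, hq2⟩, hp'd, hq'd, hyeq⟩ := hy
  have hp1 : dist p' B.w = 1 → p' ∈ closure (Ex T B.w {B.a, B.b}) ∨
      ∃ l, l ∉ T B.w ∧ l ∈ T p ∧ ∀ᶠ g in 𝓝[sphere B.w 1] p', l ∈ T g := hp1
  have hq1 : dist q' B.w = 1 → q' ∈ closure (Ex T B.w {B.c, B.d}) ∨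
      ∃ l, l ∉ T B.w ∧ l ∈ T q ∧ ∀ᶠ g in 𝓝[sphere B.w 1] q', l ∈ T g := hq1
  have hp1' : p' ∈ closure (Ex T B.w {B.a, B.b}) → p' ∈ B.K := hp1'
  have hq1' : q' ∈ closure (Ex T B.w {B.c, B.d}) → q' ∈ B.L := hq1'
  have hpq' : p' ≠ q' := by
    rintro rfl
    rw [mem_ball] at hp2 hq2
    have := dist_triangle_left p q p'
    linarith
  have hyw : y ≠ B.w := hyw
  have hpq2' : p' + q' ≠ 2 * B.w := by
    intro h3
    exact hyw (by rw [hyeq]; linear_combination h3)
  refine ⟨hcol, p', hp1' ?_, q', hq1' ?_, hyeq⟩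
  · rcases hp1 hp'd with h3 | ⟨l, hl, -, hJ⟩
    · exact h3
    · exact (cell_rule h hq'd hyeq hpq' hpq2' (hcol l hl) hp'd hJ).elim
  · rcases hq1 hq'd with h3 | ⟨l, hl, -, hJ⟩
    · exact h3
    · exact (cell_rule h hp'd (by rw [hyeq]; ring) hpq'.symm (by rw [add_comm]; exact hpq2')
        (hcol l hl) hq'd hJ).elim

end Box

/-- **The border of the free colours in a family of boxes.** If every complementary corner `M` of
the boxes is a two-pair point, all four of whose borders are in cells of the family, then the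
border of the free colours in the cells has no point of `XX`. -/
theorem no_boxes2 (h : Irr U T) (hmin : Mn U T) {ι : Type*} (B : ι → Box) (hB : ∀ i, (B i).Ok2 T)
    (hfin : ∀ R, {i | (B i).w ∈ closedBall (0 : ℂ) R}.Finite)
    (hcor : ∀ i, ∀ p ∈ (B i).K, ∀ q ∈ (B i).L, T p ∪ T q = univ → p + q ≠ 2 * (B i).w →
      ∃ a b c d, DPt T (p + q - (B i).w) a b c d ∧ ∀ x ∈ ({a, b} : Set (Fin 6)),
        ∀ y ∈ ({c, d} : Set (Fin 6)), ∃ j, x ∉ T (B j).w ∧ y ∉ T (B j).w ∧
          p + q - (B i).w ∈ (B j).cell) :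
    ∀ i, ∀ u ∈ (B i).oo T, u ∉ XX U := by
  intro i₀ u₀ hu₀ hX₀
  let Ω : Set ℂ := ⋃ i, (B i).oo T
  -- dichotomy
  have hdich : ∀ i, ∀ u ∈ (B i).oo T, (∀ m ∈ T u, m ∉ T (B i).w) ∨
      ((∃ p, p ∈ XX U ∧ (T p).ncard = 3) ∧ ∃ a b c d, DPt T u a b c d ∧
        ∀ x ∈ ({a, b} : Set (Fin 6)), ∀ y ∈ ({c, d} : Set (Fin 6)),
          ∃ j, x ∉ T (B j).w ∧ y ∉ T (B j).w ∧ u ∈ (B j).cell) := by
    intro i u hu
    obtain ⟨p, hpK, q, hqL, C, C'⟩ := (hB i).data h hmin hu
    rcases C.dich C' with h1 | h1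
    · exact Or.inl h1
    · right
      refine ⟨⟨p, ?_, ?_⟩, ?_⟩
      · exact h.mem_XX C.hpd (show (B i).a ∈ T p from sub_of_closure h C.hp (by simp))
          (h.sub _ (ab_sub C.D (by simp)))
      · have h2 := C.hp3
        have h3 := C'.hp3
        have h4 := Set.ncard_union_le (T p) (T q)
        rw [h1, Set.ncard_univ, Nat.card_eq_fintype_card, Fintype.card_fin] at h4
        omega
      · rw [C.hu]
        exact hcor i p hpK q hqL h1 C.ne2
  -- the free colours
  have hfree : ∀ i, (T (B i).w)ᶜ.ncard = 2 := fun i => card_compl (hB i).D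
  -- closed
  have hΩ : IsClosed Ω := by
    refine isClosed_of_closure_subset fun x hx => ?_
    obtain ⟨R, hR⟩ : ∃ R : ℝ, ball x 1 ⊆ closedBall 0 R := by
      refine ⟨1 + dist x 0, fun y hy => ?_⟩
      rw [mem_ball] at hy
      rw [mem_closedBall]
      have := dist_triangle y x 0
      linarith
    let Ω' : Set ℂ := ⋃ i ∈ {i | (B i).w ∈ closedBall (0 : ℂ) (R + 2)}, (B i).oo T
    have hΩ' : IsClosed Ω' := (hfin (R + 2)).isClosed_biUnion fun i _ => (hB i).isClosed_oo h
    have h1 : x ∈ closure Ω' := by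
      rw [mem_closure_iff_nhds] at hx ⊢
      intro t ht
      obtain ⟨y, ⟨hy1, hy2⟩, hy3⟩ := hx (t ∩ ball x 1) (inter_mem ht (ball_mem_nhds x one_pos))
      refine ⟨y, hy1, ?_⟩
      obtain ⟨i, hyi⟩ := mem_iUnion.1 hy3
      refine mem_iUnion₂.2 ⟨i, ?_, hyi⟩
      have h2 := (hB i).cell_sub hyi.2
      have h3 := hR hy2
      show (B i).w ∈ closedBall (0 : ℂ) (R + 2)
      rw [mem_closedBall] at h2 h3 ⊢
      have := dist_triangle (B i).w y 0
      rw [dist_comm] at h2
      linarith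
    have h2 : x ∈ Ω' := hΩ'.closure_subset h1
    obtain ⟨i, -, hxi⟩ := mem_iUnion₂.1 h2
    exact mem_iUnion.2 ⟨i, hxi⟩
  -- membership from two colours
  have hin : ∀ u a b c d, DPt T u a b c d → ∀ x ∈ ({a, b} : Set (Fin 6)),
      ∀ y ∈ ({c, d} : Set (Fin 6)), ∀ j, x ∉ T (B j).w → y ∉ T (B j).w → u ∈ (B j).cell →
      (T (B j).w)ᶜ = {x, y} ∧ u ∈ (B j).oo T := by
    intro u a b c d hD x hx y hy j hxj hyj huj
    have hxu : x ∈ T u := ab_sub hD hx
    have hyu : y ∈ T u := ab_sub hD.swap hy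
    have hxy : x ≠ y := by
      rintro rfl
      rcases hx with rfl | hx
      · rcases hy with h1 | h1
        · exact hD.ac h1
        · exact hD.ad h1
      · rw [mem_singleton_iff] at hx; subst hx
        rcases hy with h1 | h1
        · exact hD.bc h1
        · exact hD.bd h1
    have h1 : ({x, y} : Set (Fin 6)) = (T (B j).w)ᶜ := by
      refine Set.eq_of_subset_of_ncard_le ?_ (by rw [hfree j, Set.ncard_pair hxy]) (Set.toFinite _)
      rintro i (rfl | h2)
      · exact hxj
      · rw [mem_singleton_iff] at h2; subst h2; exact hyj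
    refine ⟨h1.symm, fun i hi => ?_, huj⟩
    have h2 : i ∈ ({x, y} : Set (Fin 6)) := by rw [h1]; exact hi
    rcases h2 with rfl | h2
    · exact hxu
    · rw [mem_singleton_iff] at h2; subst h2; exact hyu
  -- relatively open
  have hop : ∀ x ∈ Ω, ∀ᶠ y in 𝓝 x, 2 ≤ (T y).ncard → y ∈ Ω := by
    intro x hx
    obtain ⟨i, hxi⟩ := mem_iUnion.1 hx
    rcases hdich i x hxi with h1 | ⟨-, a, b, c, d, hD, hall⟩
    · filter_upwards [(hB i).near h hmin hxi, h.nhd x] with y hy1 hy2 hy3
      have h2 : T y ⊆ (T (B i).w)ᶜ := fun m hm => h1 m (hy2 hm)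
      have h3 : T y = (T (B i).w)ᶜ :=
        Set.eq_of_subset_of_ncard_le h2 (by rw [hfree i]; exact hy3) (Set.toFinite _)
      exact mem_iUnion.2 ⟨i, hy1 fun m hm => by rw [h3]; exact hm⟩
    · have key : ∀ m ∈ ({a, b} : Set (Fin 6)), ∀ n ∈ ({c, d} : Set (Fin 6)),
          ∀ᶠ y in 𝓝 x, m ∈ T y → n ∈ T y → y ∈ Ω := by
        intro m hm n hn
        obtain ⟨j, hj1, hj2, hj3⟩ := hall m hm n hn
        obtain ⟨hE, hxj⟩ := hin x a b c d hD m hm n hn j hj1 hj2 hj3
        filter_upwards [(hB j).near h hmin hxj] with y hy h5 h6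
        refine mem_iUnion.2 ⟨j, hy fun i hi => ?_⟩
        have h2 : i ∈ ({m, n} : Set (Fin 6)) := by rw [← hE]; exact hi
        rcases h2 with rfl | h2
        · exact h5
        · rw [mem_singleton_iff] at h2; subst h2; exact h6
      filter_upwards [h.nhd x, pair_sep h hD, pair_sep h hD.swap,
        key a (by simp) c (by simp), key a (by simp) d (by simp), key b (by simp) c (by simp),
        key b (by simp) d (by simp)] with y hy hab hcd h5 h6 h7 h8 hy3
      by_cases hyx : y = x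
      · rw [hyx]; exact hx
      have h2 : (a ∈ T y ∨ b ∈ T y) ∧ (c ∈ T y ∨ d ∈ T y) := by
        constructor
        · by_contra hcon
          push Not at hcon
          have h9 : T y ⊆ {c, d} := by
            intro m hm
            have h10 := hy hm
            rw [hD.pal] at h10
            rcases h10 with rfl | rfl | h10
            · exact absurd hm hcon.1
            · exact absurd hm hcon.2
            · exact h10
          have h10 : T y = {c, d} :=
            Set.eq_of_subset_of_ncard_le h9 (by rw [Set.ncard_pair hD.cd]; exact hy3)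
              (Set.toFinite _)
          exact hyx (hcd (by rw [h10]; simp) (by rw [h10]; simp))
        · by_contra hcon
          push Not at hcon
          have h9 : T y ⊆ {a, b} := by
            intro m hm
            have h10 := hy hm
            rw [hD.pal] at h10
            rcases h10 with rfl | rfl | rfl | h10
            · simp
            · simp
            · exact absurd hm hcon.1
            · rw [mem_singleton_iff] at h10; subst h10; exact absurd hm hcon.2
          have h10 : T y = {a, b} :=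
            Set.eq_of_subset_of_ncard_le h9 (by rw [Set.ncard_pair hD.ab]; exact hy3)
              (Set.toFinite _)
          exact hyx (hab (by rw [h10]; simp) (by rw [h10]; simp))
      rcases h2 with ⟨h9 | h9, h10 | h10⟩
      · exact h5 h9 h10
      · exact h6 h9 h10
      · exact h7 h9 h10
      · exact h8 h9 h10
  have hall := h.close hΩ hop (mem_iUnion.2 ⟨i₀, hu₀⟩) hX₀
  -- the centre of the box is in `Ω`, so it is a corner
  have hwX : (B i₀).w ∈ XX U := by
    obtain ⟨g, hg⟩ := (hB i₀).D.arc1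
    have hgT : T g = {(B i₀).a, (B i₀).b} := hg.mem
    exact h.mem_XX (by rw [dist_comm]; exact hg.1)
      (show (B i₀).a ∈ T (B i₀).w by rw [(hB i₀).D.pal]; simp) (h.sub g (by rw [hgT]; simp))
  obtain ⟨i₁, hi₁⟩ := mem_iUnion.1 (hall hwX)
  rcases hdich i₁ _ hi₁ with h1 | ⟨⟨p, hpX, hp3⟩, -⟩
  · have h2 := Set.ncard_le_ncard (show T (B i₀).w ⊆ (T (B i₁).w)ᶜ from h1) (Set.toFinite _)
    rw [hfree i₁, DPt_card (hB i₀).D] at h2
    omega
  · obtain ⟨i₂, hi₂⟩ := mem_iUnion.1 (hall hpX)
    rcases hdich i₂ _ hi₂ with h1 | ⟨-, a, b, c, d, hD, -⟩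
    · have h2 := Set.ncard_le_ncard (show T p ⊆ (T (B i₂).w)ᶜ from h1) (Set.toFinite _)
      rw [hfree i₂] at h2
      omega
    · have h2 := DPt_card hD
      omega


end Vale.Agent.P032.H926
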