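import Vale.Agent.P032.H838.KFour

/-!
# P032: no centre with two ends of each of two complementary types

`CNet.no_two_two` : if at every centre with complementary ends `v`, `q` the exact arcs at `v` and
at `q` lie on opposite sides (`om`), then no centre has two ends of one type and two ends of the
complementary type.  Only `LP3`, `sep`, `rh`, `tan` are used; nothing about the other ends of the
centre and of its neighbours, nothing about `J`-points.
-/

open Complex

set_option linter.dupNamespace false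

namespace Vale.Agent.P032.H838

open Vale.Agent.P032.Net.H672

/-- the signs -/
theorem arith533 {B K A' K' A'' K'' p r m V x11 x12 x21 x22 : ℝ} (hB : 0 < B) (hK : 0 < K)
    (hA' : 0 ≤ A') (hK' : 0 < K') (hA'' : 0 ≤ A'') (hK'' : 0 < K'') (s21 : p = 1 ∨ p = -1)
    (s22 : r = 1 ∨ r = -1) (o2 : m = 1 ∨ m = -1) (hV : V ≠ 0)
    (g1 : B * (p * x21) + K * (r * x22) = 0) (g2 : K' * (p * V) = A' * (m * x11))
    (g3 : K'' * (r * V) = A'' * (m * x12)) (hsep : 0 < x11 * x12 * (x21 * x22)) : False := by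
  have hm : m * m = 1 := by rcases o2 with h | h <;> rw [h] <;> norm_num
  have hp : p * p = 1 := by rcases s21 with h | h <;> rw [h] <;> norm_num
  have hV2 : 0 < V * V := mul_self_pos.2 hV
  have k1 : K' * K'' * (p * r) * (V * V) = A' * A'' * (x11 * x12) := by
    have : (K' * (p * V)) * (K'' * (r * V)) = (A' * (m * x11)) * (A'' * (m * x12)) := by
      rw [g2, g3]
    linear_combination this + A' * A'' * (x11 * x12) * hm
  have k2 : B * (x21 * x21) = -(K * (p * r) * (x21 * x22)) := by
    linear_combination g1 * (p * x21) - B * (x21 * x21) * hp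
  have hx : x11 * x12 ≠ 0 ∧ x21 * x22 ≠ 0 := by
    constructor
    · intro h; rw [h, zero_mul] at hsep; exact lt_irrefl _ hsep
    · intro h; rw [h, mul_zero] at hsep; exact lt_irrefl _ hsep
  have hx21 : 0 < x21 * x21 := by
    refine mul_self_pos.2 fun h => hx.2 ?_
    rw [h, zero_mul]
  have hpr : p * r = 1 ∨ p * r = -1 := by
    rcases s21 with h | h <;> rcases s22 with h' | h' <;> rw [h, h'] <;> norm_num
  have hKK : 0 < K' * K'' := mul_pos hK' hK''
  have hAA : 0 ≤ A' * A'' := mul_nonneg hA' hA''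
  have h3 := mul_pos hKK hV2
  have h4 := mul_pos hB hx21
  rcases hpr with h | h
  · rw [h] at k1 k2
    have c1 : 0 < x11 * x12 := by
      by_contra hn
      push Not at hn
      have := mul_nonneg hAA (neg_nonneg.2 hn)
      linarith
    have c2 : x21 * x22 < 0 := by
      by_contra hn
      push Not at hn
      have := mul_nonneg hK.le hn
      linarith
    have := mul_neg_of_pos_of_neg c1 c2
    linarith
  · rw [h] at k1 k2
    have c1 : x11 * x12 < 0 := by
      by_contra hn
      push Not at hn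
      have := mul_nonneg hAA hn
      linarith
    have c2 : 0 < x21 * x22 := by
      by_contra hn
      push Not at hn
      have := mul_nonneg hK.le (neg_nonneg.2 hn)
      linarith
    have := mul_neg_of_neg_of_pos c1 c2
    linarith

namespace CNet

variable {T : ℂ → Set (Fin 6)} {E : ℂ → ℂ → Prop} {o : ℂ → ℂ → ℝ} {inn : ℂ → ℂ → Fin 6}
  {z v q v' q' w : ℂ}

variable (C : CNet T E o inn)
include C

/-- the three exact arcs at an end with three centres -/
theorem tri533 (hv : E z v) (hq : E z q) (hq' : E z q') (h : T q = (T v)ᶜ)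
    (h' : T q' = (T v)ᶜ) (hne : q ≠ q') :
    ∃ A B K : ℝ, 0 ≤ A ∧ 0 < B ∧ 0 < K ∧ ∀ x : ℂ,
      B * (o (v + q - z) v * dt x (q - z)) + K * (o (v + q' - z) v * dt x (q' - z)) =
        A * (o z v * dt x (v - z)) := by
  obtain ⟨a, b, ha, hb, hab⟩ := C.LP3 hv hq h (C.rh hv hq' h') (C.rh' hv hq' h') h'
    (C.anti hv hq' h') (fun h5 => hne (by linear_combination -h5))
  obtain ⟨a', b', ha', hb', hab'⟩ := C.LP3 hv hq' h' (C.rh hv hq h) (C.rh' hv hq h) h
    (C.anti hv hq h) (fun h5 => hne (by linear_combination h5))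
  rw [show v + q' - z - v = q' - z by ring, show z - v = -(v - z) by ring] at hab
  rw [show v + q - z - v = q - z by ring, show z - v = -(v - z) by ring] at hab'
  refine ⟨a + a', b + 1, b' + 1, by linarith, by linarith, by linarith, fun x => ?_⟩
  have e0 : ((o (v + q' - z) v : ℝ) : ℂ) * (q' - z) + ((-(a * o z v) : ℝ) : ℂ) * (v - z) +
      ((b * o (v + q - z) v : ℝ) : ℂ) * (q - z) = 0 := by
    push_cast
    linear_combination hab
  have e0' : ((o (v + q - z) v : ℝ) : ℂ) * (q - z) + ((-(a' * o z v) : ℝ) : ℂ) * (v - z) +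
      ((b' * o (v + q' - z) v : ℝ) : ℂ) * (q' - z) = 0 := by
    push_cast
    linear_combination hab'
  have e1 := dt_lin x e0
  have e1' := dt_lin x e0'
  linear_combination e1 + e1'

/-- the same at the other type -/
theorem tri533' (hv : E z v) (hv' : E z v') (hq : E z q) (h : T q = (T v)ᶜ)
    (h' : T q = (T v')ᶜ) (hne : v ≠ v') :
    ∃ A B K : ℝ, 0 ≤ A ∧ 0 < B ∧ 0 < K ∧ ∀ x : ℂ,
      B * (o (v + q - z) q * dt x (v - z)) + K * (o (v' + q - z) q * dt x (v' - z)) =
        A * (o z q * dt x (q - z)) := by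
  have := C.tri533 hq hv hv' (by rw [h, compl_compl]) (by rw [h', compl_compl]) hne
  rw [add_comm q v, add_comm q v'] at this
  exact this

/-- **no centre with two ends of each of two complementary types** -/
theorem no_two_two
    (om : ∀ {z v q}, E z v → E z q → T q = (T v)ᶜ → o z q = -(o z v))
    {z v₁ v₂ q₁ q₂ : ℂ} (a1 : E z v₁) (a2 : E z v₂) (b1 : E z q₁) (b2 : E z q₂)
    (hvv : T v₂ = T v₁) (h1 : T q₁ = (T v₁)ᶜ) (h2 : T q₂ = (T v₁)ᶜ) (nv : v₁ ≠ v₂)
    (nq : q₁ ≠ q₂) : False := by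
  have h1' : T q₁ = (T v₂)ᶜ := by rw [hvv]; exact h1
  have h2' : T q₂ = (T v₂)ᶜ := by rw [hvv]; exact h2
  have hsep := C.sep a1 a2 b1 b2 hvv h1 h2
  have hV : dt (v₁ - z) (v₂ - z) ≠ 0 :=
    C.dt_ne_same b1 a1 a2 (by rw [h1, compl_compl]) (by rw [h1, compl_compl]; exact hvv) nv
  -- the four products
  have o2 := C.ori a2
  have r11 := om (C.rh a1 b1 h1) (C.rh' a1 b1 h1) h1
  have r12 := om (C.rh a1 b2 h2) (C.rh' a1 b2 h2) h2
  have r21 := om (C.rh a2 b1 h1') (C.rh' a2 b1 h1') h1'
  have r22 := om (C.rh a2 b2 h2') (C.rh' a2 b2 h2') h2'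
  have s21 := C.ori (C.rh a2 b1 h1')
  have s22 := C.ori (C.rh a2 b2 h2')
  have t1 := C.ori b1
  have t2 := C.ori b2
  have u1 := om a2 b1 h1'
  have u2 := om a2 b2 h2'
  obtain ⟨A, B, K, hA, hB, hK, e⟩ := C.tri533 a2 b1 b2 h1' h2' nq
  obtain ⟨A', B', K', hA', hB', hK', e'⟩ := C.tri533' a1 a2 b1 h1 h1' nv
  obtain ⟨A'', B'', K'', hA'', hB'', hK'', e''⟩ := C.tri533' a1 a2 b2 h2 h2' nv
  have f1 := e (v₂ - z)
  have f2 := e' (v₁ - z)
  have f3 := e'' (v₁ - z)
  rw [dt_self] at f1 f2 f3
  rw [r21, u1] at f2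
  rw [r22, u2] at f3
  exact arith533 hB hK hA' hK' hA'' hK'' s21 s22 o2 hV (by linarith) (by linarith)
    (by linarith) hsep

end CNet

end Vale.Agent.P032.H838
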